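import Vale.Agent.P367.Top
import Vale.Agent.P367A.Main
import Vale.Agent.P367L.Main
import Vale.Agent.P367S.Main
import Vale.Agent.P367S.MEx
import Vale.Agent.P367T.Main
import Vale.Agent.P367G.Fin
import Vale.Agent.P367G.R2
import Vale.Agent.P367M.Main

/-! QAOA reaches the ground state energy of the Sherrington-Kirkpatrick model. -/

namespace Vale.Agent.Results.P367.Parisi

open MeasureTheory Filter Topology Vale.Agent.P146 Vale.Agent.P367

theorem result :
    (∀ n, Integrable (fun J => ⨆ σ : Bas n, ham n J σ) (disorder n)) ∧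
    (∀ (n p : ℕ) (γ β : Fin p → ℝ),
      Integrable (fun J => energy n J (qaoa n J γ β)) (disorder n)) ∧
    Tendsto gs atTop (𝓝 Pstar) ∧
    (∀ (p : ℕ) (γ β : Fin p → ℝ), Tendsto (fun n => val n γ β) atTop (𝓝 (vp γ β))) ∧
    (∀ p : ℕ, BddAbove (Set.range fun a : (Fin p → ℝ) × (Fin p → ℝ) => vp a.1 a.2)) ∧
    Tendsto Qp atTop (𝓝 Pstar) := by
  obtain ⟨K, i1, i2, i3, hK⟩ := Vale.Agent.P367S.exists_mdl
  exact final partA partL Vale.Agent.P367S.partS partT (partMG_of G.partR G.partG (partM_of ⟨K, i1, i2, i3, hK⟩))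

end Vale.Agent.Results.P367.Parisi
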